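import Mathlib

/-! The shift lemma. -/

open Finset

namespace Vale.Agent.P127S

theorem Comb_med (T : Finset ℕ) (hT : T.Nonempty) : ∃ i0 ∈ T,
    T.card ≤ 2 * (T.filter (· ≤ i0)).card ∧ T.card ≤ 2 * (T.filter (i0 ≤ ·)).card := by
  classical
  have hex : ∃ i, T.card ≤ 2 * (T.filter (· ≤ i)).card := by
    refine ⟨T.sup id, ?_⟩
    rw [filter_true_of_mem (p := (· ≤ T.sup id)) fun x hx => le_sup (f := id) hx]
    omega
  have h1 := Nat.find_spec hex
  have h2 : 2 * (T.filter (· < Nat.find hex)).card < T.card := by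
    rcases h : Nat.find hex with _ | j
    · rw [filter_false_of_mem fun x _ => Nat.not_lt_zero x]
      simpa using hT.card_pos
    · have h3 := Nat.find_min hex (show j < Nat.find hex by omega)
      rw [filter_congr (q := (· ≤ j)) fun x _ => Nat.lt_succ_iff]
      omega
  refine ⟨Nat.find hex, ?_, h1, ?_⟩
  · by_contra hn
    have e : T.filter (· ≤ Nat.find hex) = T.filter (· < Nat.find hex) :=
      filter_congr fun x hx => ⟨fun h => lt_of_le_of_ne h (fun e => hn (e ▸ hx)), le_of_lt⟩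
    rw [e] at h1
    omega
  · have h3 := card_filter_add_card_filter_not (s := T) (· < Nat.find hex)
    have e : T.filter (fun x => ¬ x < Nat.find hex) = T.filter (Nat.find hex ≤ ·) :=
      filter_congr fun x _ => not_lt
    rw [e] at h3
    omega

theorem Comb_pig (T : Finset ℕ) (n r d : ℕ) (hT : ∀ i ∈ T, i < n) (hd : r * d ≤ n)
    (hc : 2 * n < (r + 1) * T.card) : ∃ j, 1 ≤ j ∧ j ≤ r ∧ ∃ i ∈ T, i + j * d ∈ T := by
  have hlt : (range (2 * n)).card < (range (r + 1) ×ˢ T).card := by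
    rw [card_product, card_range, card_range]; exact hc
  obtain ⟨x, hx, y, hy, hne, he⟩ := exists_ne_map_eq_of_card_lt_of_maps_to hlt
    (f := fun p : ℕ × ℕ => p.2 + p.1 * d) (by
      intro p hp
      obtain ⟨h1, h2⟩ := mem_product.1 (mem_coe.1 hp)
      have h3 := hT _ h2
      have h4 : p.1 * d ≤ r * d := Nat.mul_le_mul_right d (Nat.lt_succ_iff.1 (mem_range.1 h1))
      exact mem_coe.2 (mem_range.2 (by dsimp only; omega)))
  obtain ⟨x1, x2⟩ := mem_product.1 hx
  obtain ⟨y1, y2⟩ := mem_product.1 hy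
  have x3 := mem_range.1 x1
  have y3 := mem_range.1 y1
  rcases lt_trichotomy x.1 y.1 with h | h | h
  · obtain ⟨j, hj⟩ := Nat.exists_eq_add_of_lt h
    refine ⟨j + 1, by omega, by omega, y.2, y2, ?_⟩
    have : x.2 = y.2 + (j + 1) * d := by
      rw [hj] at he
      nlinarith
    rw [← this]; exact x2
  · exfalso
    rw [h] at he
    exact hne (Prod.ext h (by omega))
  · obtain ⟨j, hj⟩ := Nat.exists_eq_add_of_lt h
    refine ⟨j + 1, by omega, by omega, x.2, x2, ?_⟩
    have : y.2 = x.2 + (j + 1) * d := by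
      rw [hj] at he
      nlinarith
    rw [← this]; exact y2

/-- Mean displacement of `a` under the shift `D`. -/
noncomputable def Comb_S (a : ℕ → ℝ) (i0 n D : ℕ) : ℝ :=
  ∑ k ∈ Ico i0 (n - D), |a (k + D) - a k|

theorem Comb_add (a : ℕ → ℝ) (i0 n D D' : ℕ) :
    Comb_S a i0 n (D + D') ≤ Comb_S a i0 n D + Comb_S a i0 n D' := by
  unfold Comb_S
  have h1 : ∑ k ∈ Ico i0 (n - (D + D')), |a (k + D' + D) - a (k + D')| ≤
      ∑ k ∈ Ico i0 (n - D), |a (k + D) - a k| := by
    rw [sum_Ico_add' (fun k => |a (k + D) - a k|) i0 (n - (D + D')) D']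
    refine sum_le_sum_of_subset_of_nonneg (fun x hx => ?_) fun _ _ _ => abs_nonneg _
    rw [mem_Ico] at hx ⊢
    omega
  have h2 : ∑ k ∈ Ico i0 (n - (D + D')), |a (k + D') - a k| ≤
      ∑ k ∈ Ico i0 (n - D'), |a (k + D') - a k| := by
    refine sum_le_sum_of_subset_of_nonneg (fun x hx => ?_) fun _ _ _ => abs_nonneg _
    rw [mem_Ico] at hx ⊢
    omega
  refine le_trans ?_ (add_le_add h1 h2)
  rw [← sum_add_distrib]
  refine sum_le_sum fun k _ => ?_
  rw [show k + (D + D') = k + D' + D by ring]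
  exact abs_sub_le _ _ _

theorem Comb_zero (a : ℕ → ℝ) (i0 n : ℕ) : Comb_S a i0 n 0 = 0 := by
  unfold Comb_S
  simp

theorem Comb_mul (a : ℕ → ℝ) (i0 n D m : ℕ) : Comb_S a i0 n (m * D) ≤ m * Comb_S a i0 n D := by
  induction m with
  | zero => simp [Comb_zero]
  | succ m ih =>
    have := Comb_add a i0 n (m * D) D
    rw [Nat.succ_mul]
    push_cast
    linarith

theorem Comb_one (a : ℕ → ℝ) (i0 n : ℕ) {ε : ℝ} (hε : 0 ≤ ε) (h : ∀ k, |a (k + 1) - a k| ≤ ε) :
    Comb_S a i0 n 1 ≤ ε * n := by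
  unfold Comb_S
  refine (sum_le_card_nsmul _ _ ε fun k _ => h k).trans ?_
  rw [nsmul_eq_mul, mul_comm, Nat.card_Ico]
  refine mul_le_mul_of_nonneg_left ?_ hε
  exact_mod_cast (show n - 1 - i0 ≤ n by omega)

theorem Comb_two (a b : ℕ → ℝ) {i0 n i D : ℕ} {c : ℝ} (hi : i ≤ i0)
    (h1 : ∑ k ∈ range (n - i), |a (i + k) - b k| ≤ c)
    (h2 : ∑ k ∈ range (n - (i + D)), |a (i + D + k) - b k| ≤ c) : Comb_S a i0 n D ≤ 2 * c := by
  unfold Comb_S
  have e1 : ∑ k ∈ Ico i0 (n - D), |a (k + D) - a k| ≤ ∑ k ∈ Ico i (n - D), |a (k + D) - a k| :=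
    sum_le_sum_of_subset_of_nonneg (Ico_subset_Ico_left hi) fun _ _ _ => abs_nonneg _
  have e2 : ∑ k ∈ range (n - (i + D)), |a (i + k) - b k| ≤
      ∑ k ∈ range (n - i), |a (i + k) - b k| :=
    sum_le_sum_of_subset_of_nonneg (range_subset_range.2 (by omega)) fun _ _ _ => abs_nonneg _
  rw [sum_Ico_eq_sum_range _ i, show n - D - i = n - (i + D) by omega] at e1
  have e3 : ∑ k ∈ range (n - (i + D)), |a (i + k + D) - a (i + k)| ≤
      ∑ k ∈ range (n - (i + D)), |a (i + D + k) - b k| +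
        ∑ k ∈ range (n - (i + D)), |a (i + k) - b k| := by
    rw [← sum_add_distrib]
    refine sum_le_sum fun k _ => ?_
    rw [show i + k + D = i + D + k by ring, abs_sub_comm (a (i + k))]
    exact abs_sub_le _ _ _
  linarith

theorem Comb_pair (a : ℕ → ℝ) (i0 n : ℕ) :
    ∑ u ∈ Ico i0 n, ∑ k ∈ Ico i0 n, |a u - a k| ≤ 2 * ∑ D ∈ range n, Comb_S a i0 n D := by
  have h1 : ∑ k ∈ Ico i0 n, ∑ u ∈ Ico i0 n, (if k ≤ u then |a u - a k| else 0) =
      ∑ D ∈ range n, Comb_S a i0 n D := by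
    unfold Comb_S
    rw [← sum_comm' (s := Ico i0 n) (t := fun k => range (n - k)) (t' := range n)
      (s' := fun D => Ico i0 (n - D)) (f := fun k D => |a (k + D) - a k|)
      (fun x y => by simp only [mem_Ico, mem_range]; omega)]
    refine sum_congr rfl fun k hk => ?_
    rw [← sum_filter, ← sum_Ico_eq_sum_range (fun u => |a u - a k|) k n]
    refine sum_congr ?_ fun _ _ => rfl
    ext u
    rw [mem_Ico] at hk
    simp only [mem_filter, mem_Ico]
    omega
  have h2 : ∑ u ∈ Ico i0 n, ∑ k ∈ Ico i0 n, |a u - a k| ≤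
      ∑ u ∈ Ico i0 n, ∑ k ∈ Ico i0 n, ((if k ≤ u then |a u - a k| else 0) +
        (if u ≤ k then |a k - a u| else 0)) := by
    refine sum_le_sum fun u _ => sum_le_sum fun k _ => ?_
    rw [abs_sub_comm (a k)]
    have := abs_nonneg (a u - a k)
    split_ifs with p q q
    · linarith
    · linarith
    · linarith
    · omega
  simp only [sum_add_distrib] at h2
  rw [h1, sum_comm (f := fun u k => if k ≤ u then |a u - a k| else 0), h1] at h2
  linarith

/-- Shift lemma. Let `i0` be a median of `T`, `T1 = T ∩ [0, i0]`, `T2 = T ∩ [i0 + L, n)`,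
`r = ⌈8 / δ⌉`, `r0 = r !`. For `d` with `r d ≤ n` two of the sets `T1 + j d`, `j ≤ r`, meet, so
`j d ∈ T1 - T1` for some `1 ≤ j ≤ r`, so `∑ k ∈ [i0, n - j d), |a (k + j d) - a k| ≤ 2 ε n`;
iterate `r0 / j` times to get the shift `r0 d` at cost `2 r0 ε n`, and round any shift `D < n` to a
multiple of `r0` with the Lipschitz bound. Hence `a` is close in the mean to its average on
`[i0, n)`, which is at most `1 + ε n / (n - i0) ≤ 1 + 2 ε / δ`, while `a ≥ 2 - ε` on `T2 - L`. -/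
theorem comb {δ : ℝ} (hδ : 0 < δ) : ∃ ε : ℝ, 0 < ε ∧ ∀ L : ℕ, ∃ n0 : ℕ, ∀ n ≥ n0,
    ∀ (a b : ℕ → ℝ) (T : Finset ℕ), (∀ k, |a (k + 1) - a k| ≤ ε) →
      (∀ i ∈ T, L ≤ i ∧ i < n) → δ * n ≤ T.card →
      (∀ i ∈ T, ∑ k ∈ range (n - i), |a (i + k) - b k| ≤ ε * n) →
      (∀ i ∈ T, ∑ k ∈ range (n - i), a (i + k) ≤ n - i + ε * n) →
      (∀ i ∈ T, 2 - ε ≤ a (i - L)) → False := by
  set r : ℕ := ⌈4 / δ⌉₊ with hr
  have hr0 : (1 : ℝ) ≤ r.factorial := by exact_mod_cast r.factorial_pos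
  refine ⟨δ ^ 2 / (200 * r.factorial), by positivity, fun L => ⟨⌈4 * L / δ⌉₊ + 1, ?_⟩⟩
  intro n hn a b T hLip hT hcard hb hs h2
  set ε : ℝ := δ ^ 2 / (200 * r.factorial) with hε
  have hε0 : 0 < ε := by positivity
  have hεr : ε * r.factorial = δ ^ 2 / 200 := by rw [hε]; field_simp
  have hn0 : (0 : ℝ) < n := by exact_mod_cast (show 0 < n by omega)
  have hnL : 4 * (L : ℝ) ≤ δ * n := by
    have h1 : 4 * L / δ ≤ n := (Nat.le_ceil _).trans (Nat.cast_le.2 (by omega))
    rw [div_le_iff₀ hδ] at h1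
    linarith
  have hTn : T.card ≤ n := by
    have := card_le_card (show T ⊆ range n from fun i hi => mem_range.2 (hT i hi).2)
    rwa [card_range] at this
  have hδ1 : δ ≤ 1 := by
    have h1 : (T.card : ℝ) ≤ n := by exact_mod_cast hTn
    nlinarith
  have hεδ : ε ≤ δ / 200 := by nlinarith
  have hne : T.Nonempty := by
    rw [← card_pos]
    have : (0 : ℝ) < T.card := lt_of_lt_of_le (by positivity) hcard
    exact_mod_cast this
  obtain ⟨i0, hi0, m1, m2⟩ := Comb_med T hne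
  have m1' : δ * n ≤ 2 * ((T.filter (· ≤ i0)).card : ℝ) := hcard.trans (by exact_mod_cast m1)
  have m2' : δ * n ≤ 2 * ((T.filter (i0 ≤ ·)).card : ℝ) := hcard.trans (by exact_mod_cast m2)
  have hc : 2 * n < (r + 1) * (T.filter (· ≤ i0)).card := by
    have h1 : 4 / δ ≤ r := Nat.le_ceil _
    rw [div_le_iff₀ hδ] at h1
    have h3 : (2 * n : ℝ) < (r + 1) * ((T.filter (· ≤ i0)).card : ℝ) := by
      have h4 : (0 : ℝ) ≤ r := Nat.cast_nonneg _
      have h5 := mul_le_mul_of_nonneg_left m1' (show (0 : ℝ) ≤ r + 1 by linarith)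
      have h6 := mul_le_mul_of_nonneg_right h1 hn0.le
      have h7 : 0 < δ * n := by positivity
      nlinarith
    exact_mod_cast h3
  have hS : ∀ D ∈ range n, Comb_S a i0 n D ≤ 3 * (ε * r.factorial) * n := by
    intro D hD
    have hD' := mem_range.1 hD
    have e1 := Nat.div_add_mod D r.factorial
    have e2 : r * (D / r.factorial) ≤ n := by
      have := Nat.mul_le_mul_right (D / r.factorial) r.self_le_factorial
      omega
    obtain ⟨j, j1, j2, i, hi, hi'⟩ := Comb_pig _ n r (D / r.factorial)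
      (fun i hi => (hT i (mem_filter.1 hi).1).2) e2 hc
    have k1 := Comb_two a b (mem_filter.1 hi).2 (hb i (mem_filter.1 hi).1)
      (hb _ (mem_filter.1 hi').1)
    obtain ⟨q, hq⟩ := Nat.dvd_factorial j1 j2
    have k2 := Comb_mul a i0 n (j * (D / r.factorial)) q
    have k3 := Comb_mul a i0 n 1 (D % r.factorial)
    have k4 := Comb_add a i0 n (q * (j * (D / r.factorial))) (D % r.factorial * 1)
    have e3 : q * (j * (D / r.factorial)) + D % r.factorial * 1 = D := by
      rw [← mul_assoc, mul_comm q j, ← hq, mul_one, e1]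
    rw [e3] at k4
    have k5 := Comb_one a i0 n hε0.le hLip
    have q1 : (q : ℝ) ≤ r.factorial := by
      have : q ≤ r.factorial := by rw [hq]; exact Nat.le_mul_of_pos_left q j1
      exact_mod_cast this
    have q2 : ((D % r.factorial : ℕ) : ℝ) ≤ r.factorial := by
      exact_mod_cast (Nat.mod_lt D r.factorial_pos).le
    have q3 : 0 ≤ ε * n := by positivity
    have k6 : (q : ℝ) * Comb_S a i0 n (j * (D / r.factorial)) ≤ r.factorial * (2 * (ε * n)) :=
      (mul_le_mul_of_nonneg_left k1 (Nat.cast_nonneg _)).trans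
        (mul_le_mul_of_nonneg_right q1 (by positivity))
    have k7 : ((D % r.factorial : ℕ) : ℝ) * Comb_S a i0 n 1 ≤ r.factorial * (ε * n) :=
      (mul_le_mul_of_nonneg_left k5 (Nat.cast_nonneg _)).trans
        (mul_le_mul_of_nonneg_right q2 q3)
    linarith
  have hP := Comb_pair a i0 n
  have hP2 : ∑ D ∈ range n, Comb_S a i0 n D ≤ n * (3 * (δ ^ 2 / 200) * n) := by
    have := sum_le_card_nsmul _ _ _ hS
    rwa [card_range, nsmul_eq_mul, hεr] at this
  have hi0n := (hT i0 hi0).2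
  have hm : δ * n ≤ 2 * ((n : ℝ) - i0) := by
    have h1 : (T.filter (i0 ≤ ·)).card ≤ n - i0 := by
      have := card_le_card (show T.filter (i0 ≤ ·) ⊆ Ico i0 n from fun i hi =>
        mem_Ico.2 ⟨(mem_filter.1 hi).2, (hT i (mem_filter.1 hi).1).2⟩)
      rwa [Nat.card_Ico] at this
    have h3 : ((T.filter (i0 ≤ ·)).card : ℝ) ≤ (n : ℝ) - i0 := by
      rw [← Nat.cast_sub hi0n.le]; exact_mod_cast h1
    linarith
  set U := (T.filter (i0 + L ≤ ·)).image (· - L) with hU
  have hUc : δ * n ≤ 4 * (U.card : ℝ) := by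
    have h1 : U.card = (T.filter (i0 + L ≤ ·)).card := by
      refine card_image_of_injOn fun x hx y hy e => ?_
      have x1 := (mem_filter.1 (mem_coe.1 hx)).2
      have y1 := (mem_filter.1 (mem_coe.1 hy)).2
      omega
    have h3 : (T.filter (i0 ≤ ·)).card ≤ (T.filter (i0 + L ≤ ·)).card + L := by
      have h4 : T.filter (i0 ≤ ·) ⊆ T.filter (i0 + L ≤ ·) ∪ Ico i0 (i0 + L) := by
        intro i hi
        obtain ⟨p1, p2⟩ := mem_filter.1 hi
        rw [mem_union, mem_filter, mem_Ico]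
        by_cases h : i0 + L ≤ i
        · exact Or.inl ⟨p1, h⟩
        · exact Or.inr ⟨p2, by omega⟩
      have := (card_le_card h4).trans (card_union_le _ _)
      rwa [Nat.card_Ico, Nat.add_sub_cancel_left] at this
    have h5 : ((T.filter (i0 ≤ ·)).card : ℝ) ≤ U.card + L := by
      rw [h1]; exact_mod_cast h3
    linarith
  have hUs : U ⊆ Ico i0 n := by
    intro u hu
    obtain ⟨i, hi, rfl⟩ := mem_image.1 hu
    obtain ⟨p1, p2⟩ := mem_filter.1 hi
    have := (hT i p1).2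
    rw [mem_Ico]
    omega
  have hsum : ∑ k ∈ Ico i0 n, a k ≤ n - i0 + ε * n := by
    rw [sum_Ico_eq_sum_range]; exact hs i0 hi0
  have hlow : ∀ u ∈ U, δ * n / 4 ≤ ∑ k ∈ Ico i0 n, |a u - a k| := by
    intro u hu
    obtain ⟨i, hi, rfl⟩ := mem_image.1 hu
    have h1 := h2 i (mem_filter.1 hi).1
    have h3 : ∑ k ∈ Ico i0 n, (2 - ε - a k) ≤ ∑ k ∈ Ico i0 n, |a (i - L) - a k| :=
      sum_le_sum fun k _ => le_trans (by linarith) (le_abs_self _)
    rw [sum_sub_distrib, sum_const, Nat.card_Ico, nsmul_eq_mul, Nat.cast_sub hi0n.le] at h3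
    have h4 : (0 : ℝ) ≤ i0 := Nat.cast_nonneg _
    have h5 := mul_le_mul_of_nonneg_right hεδ hn0.le
    have h6 : 0 ≤ ε * i0 := by positivity
    have h7 : 0 < δ * n := by positivity
    nlinarith
  have h8 := card_nsmul_le_sum U _ _ hlow
  rw [nsmul_eq_mul] at h8
  have h9 : ∑ u ∈ U, ∑ k ∈ Ico i0 n, |a u - a k| ≤ ∑ u ∈ Ico i0 n, ∑ k ∈ Ico i0 n, |a u - a k| :=
    sum_le_sum_of_subset_of_nonneg hUs fun _ _ _ => sum_nonneg fun _ _ => abs_nonneg _
  have h7 : 0 < δ * n := by positivity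
  have h10 := mul_le_mul_of_nonneg_right hUc h7.le
  nlinarith

end Vale.Agent.P127S
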