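import Mathlib

/-! Counting lemmas for the last stage (second kind). -/

open Finset

namespace Vale.Agent.P127S

theorem coreQ1_mk (S : Finset ℕ) (r : ℕ → ℝ) (P : ℕ → Prop) [DecidablePred P] {t K : ℝ}
    (h0 : ∀ k ∈ S, 0 ≤ r k) (hP : ∀ k ∈ S, P k → t ≤ r k) (hK : ∑ k ∈ S, r k ≤ K) :
    ((S.filter P).card : ℝ) * t ≤ K := by
  calc ((S.filter P).card : ℝ) * t = ∑ _k ∈ S.filter P, t := by simp
    _ ≤ ∑ k ∈ S.filter P, r k :=
        sum_le_sum fun k hk => hP k (mem_filter.1 hk).1 (mem_filter.1 hk).2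
    _ ≤ ∑ k ∈ S, r k := sum_le_sum_of_subset_of_nonneg (filter_subset _ _) fun k hk _ => h0 k hk
    _ ≤ K := hK

theorem coreQ1_dbl (R : ℕ → ℕ → Prop) [∀ k k', Decidable (R k k')] {n N c : ℕ} {K : ℝ}
    (hN : N + c ≤ n) (hK : ∀ k < n, (((range n).filter (R k)).card : ℝ) ≤ K) :
    ∑ j ∈ range N, (((range (j + c)).filter (fun k' => R (j + c - k') k')).card : ℝ) ≤ n * K := by
  have h1 : ∑ j ∈ range N, ((range (j + c)).filter (fun k' => R (j + c - k') k')).card ≤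
      ∑ k ∈ range n, ((range n).filter (R k)).card := by
    rw [← card_sigma, ← card_sigma]
    refine card_le_card_of_injOn (fun z => ⟨z.1 + c - z.2, z.2⟩) ?_ ?_
    · intro z hz
      simp only [coe_sigma, Set.mem_sigma_iff, mem_coe, mem_range, mem_filter] at hz ⊢
      exact ⟨by omega, by omega, hz.2.2⟩
    · intro z hz w hw e
      simp only [coe_sigma, Set.mem_sigma_iff, mem_coe, mem_range, mem_filter] at hz hw
      obtain ⟨z1, z2⟩ := z
      obtain ⟨w1, w2⟩ := w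
      simp only [Sigma.mk.injEq, heq_eq_eq] at e ⊢
      simp only at hz hw
      omega
  calc ∑ j ∈ range N, (((range (j + c)).filter (fun k' => R (j + c - k') k')).card : ℝ)
      ≤ ∑ k ∈ range n, (((range n).filter (R k)).card : ℝ) := by exact_mod_cast h1
    _ ≤ ∑ _k ∈ range n, K := sum_le_sum fun k hk => hK k (mem_range.1 hk)
    _ = n * K := by simp

theorem coreQ1_abs (J : ℕ) (u : ℕ → ℝ) (Bad : ℕ → Prop) [DecidablePred Bad] {θ : ℝ} (hθ : 0 ≤ θ)
    (h1 : ∀ k < J, -2 ≤ u k) (h2 : ∀ k < J, ¬ Bad k → -θ ≤ u k) :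
    ∑ k ∈ range J, |u k| ≤
      ∑ k ∈ range J, u k + 2 * θ * J + 4 * (((range J).filter Bad).card : ℝ) := by
  have h3 : ∀ k ∈ range J, |u k| ≤ u k + 2 * θ + 4 * (if Bad k then (1 : ℝ) else 0) := by
    intro k hk
    have hk' := mem_range.1 hk
    have := h1 k hk'
    by_cases hb : Bad k
    · rw [if_pos hb, abs_le]
      constructor <;> linarith
    · have := h2 k hk' hb
      rw [if_neg hb, abs_le]
      constructor <;> linarith
  refine (sum_le_sum h3).trans (le_of_eq ?_)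
  rw [sum_add_distrib, sum_add_distrib, sum_const, ← mul_sum, sum_boole]
  simp
  ring

/-- many levels are unsaturated, have a small `x` and few bad pairs -/
theorem coreQ1_sel {σ c θ ε K : ℝ} {n N L : ℕ} (y w : ℕ → ℝ) (P : ℕ → Prop) [DecidablePred P]
    (hσ : 0 < σ) (hσ1 : σ ≤ 1) (hc2 : c ≤ σ / 100) (hθ : 0 < θ) (hε : ε = σ ^ 2 / 4000)
    (hL : 1 ≤ L) (hn : 1 ≤ n) (hN : (n : ℝ) - σ * n / 5 ≤ N) (hy0 : ∀ j, 0 ≤ y j)
    (hy1 : ∀ j, y j ≤ L) (hy : ∑ j ∈ range N, y j ≤ L * ((1 - σ + c) * n))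
    (hP : ∑ j ∈ (range N).filter P, (L - y j) ≤ 100 * ε * L * n)
    (hw0 : ∀ j, 0 ≤ w j) (hw : ∑ j ∈ range N, w j ≤ n * K) (hK : K ≤ θ * σ / 20 * n) :
    σ / 8 * n ≤ (((range N).filter
      (fun j => y j < (1 - σ / 2) * L ∧ ¬ P j ∧ w j ≤ θ * n)).card : ℝ) := by
  have hL' : (1 : ℝ) ≤ L := by exact_mod_cast hL
  have hn' : (1 : ℝ) ≤ n := by exact_mod_cast hn
  set S := (range N).filter (fun j => y j < (1 - σ / 2) * L ∧ ¬ P j ∧ w j ≤ θ * n) with hS
  set S1 := (range N).filter (fun j => (1 - σ / 2) * L ≤ y j) with hS1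
  set S2 := ((range N).filter P).filter (fun j => y j < (1 - σ / 2) * L) with hS2
  set S3 := (range N).filter (fun j => θ * n < w j) with hS3
  have hsub : range N ⊆ S ∪ (S1 ∪ (S2 ∪ S3)) := by
    intro j hj
    simp only [hS, hS1, hS2, hS3, mem_union, mem_filter]
    by_cases h1 : y j < (1 - σ / 2) * L
    · by_cases h2 : P j
      · exact Or.inr (Or.inr (Or.inl ⟨⟨hj, h2⟩, h1⟩))
      · by_cases h3 : w j ≤ θ * n
        · exact Or.inl ⟨hj, h1, h2, h3⟩
        · exact Or.inr (Or.inr (Or.inr ⟨hj, not_le.1 h3⟩))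
    · exact Or.inr (Or.inl ⟨hj, not_lt.1 h1⟩)
  have hcard : N ≤ S.card + (S1.card + (S2.card + S3.card)) := by
    calc N = (range N).card := (card_range N).symm
      _ ≤ (S ∪ (S1 ∪ (S2 ∪ S3))).card := card_le_card hsub
      _ ≤ S.card + (S1 ∪ (S2 ∪ S3)).card := card_union_le _ _
      _ ≤ S.card + (S1.card + (S2 ∪ S3).card) := by gcongr; exact card_union_le _ _
      _ ≤ S.card + (S1.card + (S2.card + S3.card)) := by gcongr; exact card_union_le _ _
  have hcard' : (N : ℝ) ≤ S.card + (S1.card + (S2.card + S3.card)) := by exact_mod_cast hcard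
  have e1 : (S1.card : ℝ) * ((1 - σ / 2) * L) ≤ L * ((1 - σ + c) * n) :=
    coreQ1_mk _ y _ (fun k _ => hy0 k) (fun k _ hk => hk) hy
  have e2 : (S2.card : ℝ) * (σ / 2 * L) ≤ 100 * ε * L * n :=
    coreQ1_mk _ (fun j => (L : ℝ) - y j) _ (fun k _ => sub_nonneg.2 (hy1 k))
      (fun k _ hk => by linarith) hP
  have e3 : (S3.card : ℝ) * (θ * n) ≤ n * K :=
    coreQ1_mk _ w _ (fun k _ => hw0 k) (fun k _ hk => hk.le) hw
  have f1 : (S1.card : ℝ) ≤ (1 - σ / 2 + c) * n := by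
    have h1 : (S1.card : ℝ) * (1 - σ / 2) ≤ (1 - σ + c) * n := by
      have : (L : ℝ) * (S1.card * (1 - σ / 2)) ≤ L * ((1 - σ + c) * n) := by linarith
      exact le_of_mul_le_mul_left this (by linarith)
    have h2 : (1 - σ + c) * n ≤ (1 - σ / 2 + c) * n * (1 - σ / 2) := by
      have : (1 - σ + c) ≤ (1 - σ / 2 + c) * (1 - σ / 2) := by nlinarith
      nlinarith
    exact le_of_mul_le_mul_right (h1.trans h2) (by linarith)
  have f2 : (S2.card : ℝ) ≤ σ / 20 * n := by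
    have : (S2.card : ℝ) * (σ / 2 * L) ≤ σ / 20 * n * (σ / 2 * L) := by
      refine e2.trans (le_of_eq ?_)
      rw [hε]; ring
    exact le_of_mul_le_mul_right this (by positivity)
  have f3 : (S3.card : ℝ) ≤ σ / 20 * n := by
    have : (S3.card : ℝ) * (θ * n) ≤ σ / 20 * n * (θ * n) := by
      refine e3.trans ?_
      calc (n : ℝ) * K ≤ n * (θ * σ / 20 * n) := by gcongr
        _ = σ / 20 * n * (θ * n) := by ring
    exact le_of_mul_le_mul_right this (by positivity)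
  have f4 : c * n ≤ σ / 100 * n := by gcongr
  have f5 : 0 ≤ σ * n := by positivity
  nlinarith

/-- the estimate on one good level -/
theorem coreQ1_lev {c θ ε D D1 E : ℝ} {n L1 J : ℕ} (g b x r d : ℕ → ℝ) (R : ℕ → ℕ → Prop)
    [∀ k k', Decidable (R k k')] (hθ : 0 < θ) (hε : 0 < ε) (hD1 : 0 < D1) (hE : E ≤ θ * D1)
    (hL1 : 1 ≤ L1) (hL1' : 14 + 2 * D + (D1 + 1) / ε ≤ θ * L1) (hJ : J + L1 < n)
    (hg1 : ∀ k, g k ≤ 2 * L1) (hb1 : ∀ k, b k ≤ 2 * L1)
    (hgs : L1 * (J - c * n - 2 * L1 - 6) ≤ ∑ k ∈ range J, g (1 + k))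
    (hbs : L1 * (J - c * n - 2 * L1 - 6) ≤ ∑ k ∈ range J, b k)
    (hgx : ∀ k, k + L1 ≤ n → g k ≤ x k) (hr0 : ∀ k, k + L1 ≤ n → 0 ≤ r k)
    (hr : ∑ k ∈ range (n - L1), r k ≤ E * n) (hbd : ∀ k, k + L1 ≤ n → b k ≤ d k + 2 * D)
    (hR : ∀ k' < J, r (J - k') ≤ D1 → D1 + 1 ≤ ε * (x (J - k') + d k' - 2 * L1 - 14) →
      R (J - k') k')
    (hw : (((range J).filter (fun k' => R (J - k') k')).card : ℝ) ≤ θ * n) :
    ∑ k ∈ range J, |2 - g (J - k) / L1 - b k / L1| ≤ 2 * c * n + 4 * L1 + 12 + 10 * θ * n ∧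
      ∑ k ∈ range J, (2 - g (J - k) / L1) ≤ J + c * n + 2 * L1 + 6 := by
  classical
  have hL' : (1 : ℝ) ≤ L1 := by exact_mod_cast hL1
  have hL0 : (0 : ℝ) < L1 := by linarith
  have hrefl : ∑ k ∈ range J, g (J - k) = ∑ k ∈ range J, g (1 + k) := by
    rw [← sum_range_reflect (fun k => g (1 + k)) J]
    refine sum_congr rfl fun k hk => ?_
    have := mem_range.1 hk
    congr 1
    omega
  have hG : (J : ℝ) - c * n - 2 * L1 - 6 ≤ ∑ k ∈ range J, g (J - k) / L1 := by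
    rw [← sum_div, le_div_iff₀ hL0, hrefl]
    linarith
  have hB : (J : ℝ) - c * n - 2 * L1 - 6 ≤ ∑ k ∈ range J, b k / L1 := by
    rw [← sum_div, le_div_iff₀ hL0]
    linarith
  refine ⟨?_, ?_⟩
  · have hJn : (J : ℝ) ≤ n := by exact_mod_cast (by omega : J ≤ n)
    have habs := coreQ1_abs J (fun k => 2 - g (J - k) / L1 - b k / L1)
      (fun k' => D1 < r (J - k') ∨ R (J - k') k') hθ.le
      (fun k _ => by
        have h1 : g (J - k) / L1 ≤ 2 := by rw [div_le_iff₀ hL0]; exact hg1 _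
        have h2 : b k / L1 ≤ 2 := by rw [div_le_iff₀ hL0]; exact hb1 _
        linarith)
      (fun k hk hb => by
        rw [not_or, not_lt] at hb
        have h1 : ¬ D1 + 1 ≤ ε * (x (J - k) + d k - 2 * L1 - 14) := fun h => hb.2 (hR k hk hb.1 h)
        rw [not_le] at h1
        have h2 : x (J - k) + d k - 2 * L1 - 14 < (D1 + 1) / ε := by
          rw [lt_div_iff₀ hε]; linarith
        have h3 := hgx (J - k) (by omega)
        have h4 := hbd k (by omega)
        have h5 : (g (J - k) + b k) / L1 ≤ 2 + θ := by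
          rw [div_le_iff₀ hL0]; linarith
        rw [add_div] at h5
        linarith)
    have hc1 : (((range J).filter (fun k' => D1 < r (J - k'))).card : ℝ) ≤ θ * n := by
      have h1 : ((range J).filter (fun k' => D1 < r (J - k'))).card ≤
          ((range (n - L1)).filter (fun k => D1 < r k)).card := by
        refine card_le_card_of_injOn (fun k' => J - k') ?_ ?_
        · intro k hk
          simp only [coe_filter, mem_range, Set.mem_ofPred_eq] at hk ⊢
          exact ⟨by omega, hk.2⟩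
        · intro k hk k' hk' e
          simp only [coe_filter, mem_range, Set.mem_ofPred_eq] at hk hk' e
          omega
      have h2 : (((range (n - L1)).filter (fun k => D1 < r k)).card : ℝ) * D1 ≤ E * n :=
        coreQ1_mk _ r _ (fun k hk => hr0 k (by have := mem_range.1 hk; omega))
          (fun k _ hk => hk.le) hr
      have h3 : (((range (n - L1)).filter (fun k => D1 < r k)).card : ℝ) ≤ θ * n := by
        have : E * n ≤ θ * n * D1 := by
          calc E * n ≤ θ * D1 * n := by gcongr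
            _ = θ * n * D1 := by ring
        exact le_of_mul_le_mul_right (h2.trans this) hD1
      exact le_trans (by exact_mod_cast h1) h3
    have hc2 : (((range J).filter (fun k' => D1 < r (J - k') ∨ R (J - k') k')).card : ℝ) ≤
        2 * θ * n := by
      rw [filter_or]
      have h1 := card_union_le ((range J).filter (fun k' => D1 < r (J - k')))
        ((range J).filter (fun k' => R (J - k') k'))
      have h2 : ((((range J).filter (fun k' => D1 < r (J - k'))) ∪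
          ((range J).filter (fun k' => R (J - k') k'))).card : ℝ) ≤
          (((range J).filter (fun k' => D1 < r (J - k'))).card : ℝ) +
          (((range J).filter (fun k' => R (J - k') k')).card : ℝ) := by exact_mod_cast h1
      linarith
    have hs : ∑ k ∈ range J, (2 - g (J - k) / L1 - b k / L1) =
        2 * J - ∑ k ∈ range J, g (J - k) / L1 - ∑ k ∈ range J, b k / L1 := by
      rw [sum_sub_distrib, sum_sub_distrib]
      simp
      ring
    have h6 : θ * J ≤ θ * n := by gcongr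
    rw [hs] at habs
    linarith
  · have hs : ∑ k ∈ range J, (2 - g (J - k) / L1) = 2 * J - ∑ k ∈ range J, g (J - k) / L1 := by
      rw [sum_sub_distrib]
      simp
      ring
    rw [hs]
    linarith

/-- the numerical part of the last stage -/
theorem coreQ1_num {σ ε0 c θ ε D D1 E K : ℝ} {n L L1 M : ℕ} (g b y x r d : ℕ → ℝ)
    (P : ℕ → Prop) [DecidablePred P] (hPx : ∀ j, ¬ P j → x (j + L + M) ≤ θ * L1)
    (hσ : 0 < σ) (hσ1 : σ ≤ 1) (hε0 : 0 < ε0) (hc1 : c ≤ ε0 / 100) (hc2 : c ≤ σ / 100)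
    (hθ : θ = ε0 / 100) (hε : ε = σ ^ 2 / 4000) (hD1 : 0 < D1) (hE : E ≤ θ * D1)
    (hL1 : 1 ≤ L1) (hL2 : 2 ≤ ε0 * L1) (hL3 : 14 + 2 * D + (D1 + 1) / ε ≤ θ * L1) (hL : L1 ≤ L)
    (hK0 : 0 ≤ K) (hK : K ≤ θ * σ / 20 * n) (hn1 : (3 * L + M + L1 : ℝ) ≤ σ * n / 5)
    (hn2 : (4 * L1 + 12 : ℝ) ≤ ε0 * n / 5)
    (hcomb : ∀ (a b : ℕ → ℝ) (T : Finset ℕ), (∀ k, |a (k + 1) - a k| ≤ ε0) →
      (∀ i ∈ T, 0 ≤ i ∧ i < n - 2 * L - L1) → σ / 8 * (n - 2 * L - L1 : ℕ) ≤ T.card →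
      (∀ i ∈ T, ∑ k ∈ range (n - 2 * L - L1 - i), |a (i + k) - b k| ≤
        ε0 * (n - 2 * L - L1 : ℕ)) →
      (∀ i ∈ T, ∑ k ∈ range (n - 2 * L - L1 - i), a (i + k) ≤
        (n - 2 * L - L1 : ℕ) - i + ε0 * (n - 2 * L - L1 : ℕ)) →
      (∀ i ∈ T, 2 - ε0 ≤ a (i - 0)) → False)
    (hg1 : ∀ k, g k ≤ 2 * L1) (hgl : ∀ k, |g (k + 1) - g k| ≤ 2) (hb1 : ∀ k, b k ≤ 2 * L1)
    (hy0 : ∀ j, 0 ≤ y j) (hy1 : ∀ j, y j ≤ L)
    (hgs : ∀ J, J < n → L1 * (J - c * n - 2 * L1 - 6) ≤ ∑ k ∈ range J, g (1 + k))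
    (hbs : ∀ J, J < n → L1 * (J - c * n - 2 * L1 - 6) ≤ ∑ k ∈ range J, b k)
    (hy : ∑ j ∈ range (n - 3 * L - M - L1), y j ≤ L * ((1 - σ + c) * n))
    (hgx : ∀ k, k + L1 ≤ n → g k ≤ x k) (hr0 : ∀ k, k + L1 ≤ n → 0 ≤ r k)
    (hr : ∑ k ∈ range (n - L1), r k ≤ E * n)
    (hP : ∑ j ∈ (range (n - 3 * L - M - L1)).filter P, (L - y j) ≤ 100 * ε * L * n)
    (hbd : ∀ k, k + L1 ≤ n → b k ≤ d k + 2 * D)
    (hst : ∀ k, k + L1 ≤ n → r k ≤ D1 → ∀ B : Finset ℕ,
      (∀ k' ∈ B, k' + L1 ≤ n ∧ D1 + 1 ≤ ε * (x k + d k' - 2 * L1 - 14) ∧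
        ∃ j, j + L + M = k + k' ∧ k + k' + 2 * L ≤ n ∧ y j < (1 - 4 * ε) * L) →
      (B.card : ℝ) ≤ K) : False := by
  classical
  have hL' : (1 : ℝ) ≤ L1 := by exact_mod_cast hL1
  have hL0 : (0 : ℝ) < L1 := by linarith
  have hLL : (L1 : ℝ) ≤ L := by exact_mod_cast hL
  have hM : (0 : ℝ) ≤ M := Nat.cast_nonneg M
  have hn0 : (0 : ℝ) ≤ n := Nat.cast_nonneg n
  have hσn : σ * n ≤ n := by nlinarith
  have hn3 : 3 * L + M + L1 ≤ n := by
    have : (3 * L + M + L1 : ℝ) ≤ n := by linarith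
    exact_mod_cast this
  have hθ0 : 0 < θ := by rw [hθ]; positivity
  have hεp : 0 < ε := by rw [hε]; positivity
  have hn' : ((n - 2 * L - L1 : ℕ) : ℝ) = n - 2 * L - L1 := by
    rw [Nat.cast_sub (by omega), Nat.cast_sub (by omega)]
    push_cast
    ring
  have hN' : ((n - 3 * L - M - L1 : ℕ) : ℝ) = n - 3 * L - M - L1 := by
    rw [Nat.cast_sub (by omega), Nat.cast_sub (by omega), Nat.cast_sub (by omega)]
    push_cast
    ring
  let R : ℕ → ℕ → Prop := fun k k' => k + L1 ≤ n ∧ r k ≤ D1 ∧ k' + L1 ≤ n ∧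
    D1 + 1 ≤ ε * (x k + d k' - 2 * L1 - 14) ∧
      ∃ j, j + L + M = k + k' ∧ k + k' + 2 * L ≤ n ∧ y j < (1 - 4 * ε) * L
  have hRK : ∀ k < n, (((range n).filter (R k)).card : ℝ) ≤ K := by
    intro k _
    by_cases hk : k + L1 ≤ n ∧ r k ≤ D1
    · exact hst k hk.1 hk.2 _ fun k' hk' => (mem_filter.1 hk').2.2.2
    · have : (range n).filter (R k) = ∅ :=
        filter_eq_empty_iff.2 fun k' _ h => hk ⟨h.1, h.2.1⟩
      rw [this]
      simpa using hK0
  let w : ℕ → ℝ := fun j =>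
    (((range (j + (L + M))).filter (fun k' => R (j + (L + M) - k') k')).card : ℝ)
  have hw : ∑ j ∈ range (n - 3 * L - M - L1), w j ≤ n * K :=
    coreQ1_dbl R (by omega) hRK
  have hsel := coreQ1_sel (N := n - 3 * L - M - L1) y w P hσ hσ1 hc2 hθ0 hε (by omega) (by omega)
    (by rw [hN']; linarith) hy0 hy1 hy hP (fun j => Nat.cast_nonneg _) hw hK
  set S := (range (n - 3 * L - M - L1)).filter
    (fun j => y j < (1 - σ / 2) * L ∧ ¬ P j ∧ w j ≤ θ * n) with hS
  have hlev : ∀ j ∈ S, j < n - 3 * L - M - L1 ∧ g (j + (L + M)) / L1 ≤ ε0 ∧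
      ∑ k ∈ range (j + (L + M)), |2 - g (j + (L + M) - k) / L1 - b k / L1| ≤
        2 * c * n + 4 * L1 + 12 + 10 * θ * n ∧
      ∑ k ∈ range (j + (L + M)), (2 - g (j + (L + M) - k) / L1) ≤
        (j + (L + M) : ℕ) + c * n + 2 * L1 + 6 := by
    intro j hj
    obtain ⟨hj1, hj2, hj3, hj4⟩ := mem_filter.1 hj
    have hj1' := mem_range.1 hj1
    refine ⟨hj1', ?_, ?_⟩
    · rw [div_le_iff₀ hL0]
      have h1 := hgx (j + (L + M)) (by omega)
      have h2 := hPx j hj3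
      rw [add_assoc] at h2
      have h3 : θ * L1 ≤ ε0 * L1 := by
        gcongr
        linarith
      linarith
    · refine coreQ1_lev g b x r d R hθ0 hεp hD1 hE hL1 hL3 (by omega) hg1 hb1
        (hgs _ (by omega)) (hbs _ (by omega)) hgx hr0 hr hbd ?_ hj4
      intro k' hk' h1 h2
      refine ⟨by omega, h1, by omega, h2, j, by omega, by omega, hj2.trans_le ?_⟩
      have : 4 * ε ≤ σ / 2 := by rw [hε]; nlinarith
      gcongr
  have hcn : c * n ≤ ε0 / 100 * n := by gcongr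
  have hε0n : 0 ≤ ε0 * n := by positivity
  have hn4 : ε0 * (n / 2) ≤ ε0 * (n - 2 * L - L1 : ℕ) := by
    rw [hn']
    gcongr
    linarith
  refine hcomb (fun i => 2 - g (n - 2 * L - L1 - i) / L1) (fun k => b k / L1)
    (S.image fun j => n - 2 * L - L1 - (j + (L + M))) ?_ ?_ ?_ ?_ ?_ ?_
  · intro k
    have h2 : (2 : ℝ) / L1 ≤ ε0 := by rw [div_le_iff₀ hL0]; exact hL2
    rcases Nat.lt_or_ge k (n - 2 * L - L1) with hk | hk
    · obtain ⟨m, hm⟩ : ∃ m, n - 2 * L - L1 - (k + 1) = m := ⟨_, rfl⟩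
      have hm' : n - 2 * L - L1 - k = m + 1 := by omega
      simp only [hm, hm']
      have : 2 - g m / L1 - (2 - g (m + 1) / L1) = (g (m + 1) - g m) / L1 := by ring
      rw [this, abs_div, abs_of_pos hL0]
      exact le_trans (by gcongr; exact hgl m) h2
    · have h1 : n - 2 * L - L1 - (k + 1) = 0 := by omega
      have h3 : n - 2 * L - L1 - k = 0 := by omega
      simp only [h1, h3, sub_self, abs_zero]
      exact hε0.le
  · intro i hi
    obtain ⟨j, hj, rfl⟩ := mem_image.1 hi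
    have := (hlev j hj).1
    omega
  · rw [card_image_of_injOn]
    · refine le_trans ?_ hsel
      rw [hn']
      gcongr
      linarith
    · intro j hj j' hj' e
      have h1 := (hlev j hj).1
      have h2 := (hlev j' hj').1
      simp only at e
      omega
  · intro i hi
    obtain ⟨j, hj, rfl⟩ := mem_image.1 hi
    obtain ⟨h1, -, h3, -⟩ := hlev j hj
    have e1 : n - 2 * L - L1 - (n - 2 * L - L1 - (j + (L + M))) = j + (L + M) := by omega
    rw [e1]
    have e2 : ∀ k, n - 2 * L - L1 - (n - 2 * L - L1 - (j + (L + M)) + k) = j + (L + M) - k := by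
      intro k; omega
    simp only [e2]
    rw [hθ] at h3
    linarith
  · intro i hi
    obtain ⟨j, hj, rfl⟩ := mem_image.1 hi
    obtain ⟨h1, -, -, h3⟩ := hlev j hj
    have e1 : n - 2 * L - L1 - (n - 2 * L - L1 - (j + (L + M))) = j + (L + M) := by omega
    rw [e1]
    have e2 : ∀ k, n - 2 * L - L1 - (n - 2 * L - L1 - (j + (L + M)) + k) = j + (L + M) - k := by
      intro k; omega
    simp only [e2]
    rw [Nat.cast_sub (by omega : j + (L + M) ≤ n - 2 * L - L1)]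
    linarith
  · intro i hi
    obtain ⟨j, hj, rfl⟩ := mem_image.1 hi
    obtain ⟨h1, h2, -, -⟩ := hlev j hj
    have e1 : n - 2 * L - L1 - (n - 2 * L - L1 - (j + (L + M)) - 0) = j + (L + M) := by omega
    simp only [e1]
    linarith

end Vale.Agent.P127S
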