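import Mathlib

/-! Packing dimension and coordinates on the space of lines. -/

open scoped ENNReal
open Set

noncomputable section

namespace Vale.Agent.P127S

/-- the supremum of `∑ (2 r) ^ s` over finite families of disjoint closed balls with centres
in `A` and radii in `(0, δ]` -/
def packAt {X : Type} [PseudoMetricSpace X] (s : ℝ) (A : Set X) (δ : ℝ) : ℝ≥0∞ :=
  ⨆ (T : Finset (X × ℝ)) (_ : ∀ z ∈ T, z.1 ∈ A ∧ 0 < z.2 ∧ z.2 ≤ δ)
    (_ : (T : Set (X × ℝ)).Pairwise fun z w =>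
      Disjoint (Metric.closedBall z.1 z.2) (Metric.closedBall w.1 w.2)),
    ∑ z ∈ T, ENNReal.ofReal ((2 * z.2) ^ s)

/-- packing premeasure -/
def packPre {X : Type} [PseudoMetricSpace X] (s : ℝ) (A : Set X) : ℝ≥0∞ :=
  ⨅ (δ : ℝ) (_ : 0 < δ), packAt s A δ

/-- packing measure -/
def packMeas {X : Type} [PseudoMetricSpace X] (s : ℝ) (A : Set X) : ℝ≥0∞ :=
  ⨅ (B : ℕ → Set X) (_ : A ⊆ ⋃ i, B i), ∑' i, packPre s (B i)

/-- packing dimension -/
def dimP {X : Type} [PseudoMetricSpace X] (A : Set X) : ℝ≥0∞ :=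
  ⨅ (s : ℝ) (_ : 0 ≤ s) (_ : packMeas s A = 0), ENNReal.ofReal s

abbrev E4 := EuclideanSpace ℝ (Fin 4)

/-- The line through `a` with unit direction `e`, as the pair (orthogonal projection onto the
direction, point of the line nearest to the origin). -/
def lineCoord (a e : E4) : (E4 →L[ℝ] E4) × E4 :=
  ((innerSL ℝ e).smulRight e, a - (inner ℝ e a : ℝ) • e)

end Vale.Agent.P127S
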